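import Vale.Agent.Lib.P080.Jets

/-!
# P080: `G ≥ 0` from above forces convexity; a convex function with `G ≤ B` from below is
differentiable
-/

open Set Filter Topology

namespace Vale.Agent.Lib.P080

/-- One touching parabola. -/
theorem touch_parabola {ψ : ℝ → ℝ} {I : Set ℝ} (hIc : I.OrdConnected) (hcont : ContinuousOn ψ I)
    (hsub : SubVal ψ I 0) {x1 x2 x3 : ℝ} (hx1 : x1 ∈ I) (hx3 : x3 ∈ I) (h12 : x1 < x2)
    (h23 : x2 < x3) {e p ε : ℝ} (hε : 0 < ε)
    (h1 : ψ x1 - quad e p (-ε) x2 x1 < ψ x2 - quad e p (-ε) x2 x2)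
    (h3 : ψ x3 - quad e p (-ε) x2 x3 < ψ x2 - quad e p (-ε) x2 x2) :
    ∃ x0 ∈ Ioo x1 x3, 2 * ε * (x0 - x2) = p ∧ ∀ t ∈ Icc x1 x3, ψ t - ψ x0 ≤ - ε * (t - x0) ^ 2 := by
  have hsubset : Icc x1 x3 ⊆ I := hIc.out hx1 hx3
  have hq := (contDiff_quad e p (-ε) x2).continuous
  have hg : ContinuousOn (fun s => ψ s - quad e p (-ε) x2 s) (Icc x1 x3) :=
    (hcont.mono hsubset).sub hq.continuousOn
  obtain ⟨x0, hx0, hloc, hmax⟩ := exists_localMax_of_endpoints h12 h23 hg h1 h3
  have hI : x0 ∈ I := hsubset ⟨hx0.1.le, hx0.2.le⟩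
  have hG := hsub x0 hI _ ((contDiff_quad e p (-ε) x2).contDiffAt) hloc
  rw [G_quad] at hG
  have hzero : p + 2 * -ε * (x0 - x2) = 0 := by
    by_contra hne
    have hpos : 0 < (p + 2 * -ε * (x0 - x2)) ^ 2 := by positivity
    nlinarith
  refine ⟨x0, hx0, by linarith, fun t ht => ?_⟩
  have h4 := hmax t ht
  simp only [quad] at h4
  have hp : p = 2 * ε * (x0 - x2) := by linarith
  subst hp
  nlinarith

/-- `G ≥ 0` at every touching from above forces convexity. -/
theorem convexOn_of_subVal {ψ : ℝ → ℝ} {I : Set ℝ} (hIc : I.OrdConnected)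
    (hcont : ContinuousOn ψ I) (hsub : SubVal ψ I 0) : ConvexOn ℝ I ψ := by
  refine convexOn_of_slope_mono_adjacent hIc.convex ?_
  intro x1 x2 x3 hx1 hx3 h12 h23
  by_contra hcon
  push Not at hcon
  have h21 : 0 < x2 - x1 := sub_pos.2 h12
  have h32 : 0 < x3 - x2 := sub_pos.2 h23
  have h31 : 0 < x3 - x1 := by linarith
  set k := (ψ x3 - ψ x1) / (x3 - x1) with hk
  have hk' : k * (x3 - x1) = ψ x3 - ψ x1 := by
    rw [hk]; field_simp
  set m := ψ x2 - (ψ x1 + k * (x2 - x1)) with hm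
  have hm0 : 0 < m := by
    rw [div_lt_div_iff₀ h32 h21] at hcon
    have e1 : (x3 - x1) * m = (ψ x2 - ψ x1) * (x3 - x2) - (ψ x3 - ψ x2) * (x2 - x1) := by
      have h0 : ψ x3 = ψ x1 + k * (x3 - x1) := by linarith
      rw [hm, h0]
      ring
    have : 0 < (x3 - x1) * m := by rw [e1]; linarith
    exact (pos_iff_pos_of_mul_pos this).1 h31
  set L := x3 - x1 with hL
  set ε := m / (4 * L ^ 2) with hε
  have hε0 : 0 < ε := by positivity
  have hεL : ε * L ^ 2 = m / 4 := by
    rw [hε]; field_simp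
  set s₂ := m / (4 * L) with hs₂
  have hs₂0 : 0 < s₂ := by positivity
  have hs₂L : s₂ * L = m / 4 := by
    rw [hs₂]; field_simp
  have hd1 : (x2 - x1) ^ 2 ≤ L ^ 2 := by
    apply pow_le_pow_left₀ h21.le; rw [hL]; linarith
  have hd3 : (x3 - x2) ^ 2 ≤ L ^ 2 := by
    apply pow_le_pow_left₀ h32.le; rw [hL]; linarith
  have hψ3 : ψ x3 = ψ x1 + k * (x3 - x1) := by linarith
  have key : ∀ s : ℝ, 0 ≤ s → s ≤ s₂ → ∃ x0 ∈ Ioo x1 x3, 2 * ε * (x0 - x2) = k + s ∧
      ∀ t ∈ Icc x1 x3, ψ t - ψ x0 ≤ - ε * (t - x0) ^ 2 := by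
    intro s hs0 hs
    apply touch_parabola (e := ψ x1 + k * (x2 - x1)) (p := k + s) hIc hcont hsub hx1 hx3 h12 h23 hε0
    · simp only [quad]
      have h5 : s * (x2 - x1) ≤ s₂ * L := by
        apply mul_le_mul hs (by rw [hL]; linarith) h21.le hs₂0.le
      have h6 : ε * (x2 - x1) ^ 2 ≤ ε * L ^ 2 := mul_le_mul_of_nonneg_left hd1 hε0.le
      nlinarith
    · simp only [quad]
      rw [hψ3]
      have h5 : 0 ≤ s * (x3 - x2) := mul_nonneg hs0 h32.le
      have h6 : ε * (x3 - x2) ^ 2 ≤ ε * L ^ 2 := mul_le_mul_of_nonneg_left hd3 hε0.le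
      nlinarith
  obtain ⟨y0, hy0, hy1, hy2⟩ := key 0 le_rfl hs₂0.le
  obtain ⟨y1, hy1', hy3, hy4⟩ := key s₂ hs₂0.le le_rfl
  have hne : y0 ≠ y1 := by
    rintro rfl
    linarith
  have h5 := hy2 y1 ⟨hy1'.1.le, hy1'.2.le⟩
  have h6 := hy4 y0 ⟨hy0.1.le, hy0.2.le⟩
  have h7 : 0 < (y1 - y0) ^ 2 := by
    have : y1 - y0 ≠ 0 := sub_ne_zero.2 (Ne.symm hne)
    positivity
  have h8 : (y0 - y1) ^ 2 = (y1 - y0) ^ 2 := by ring
  rw [h8] at h6
  nlinarith

/-- Differentiability from convexity and the bound from below. -/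
theorem differentiableAt_of_convex {ψ : ℝ → ℝ} {I : Set ℝ} (hIo : IsOpen I)
    (hc : ConvexOn ℝ I ψ) {B : ℝ} (hsup : SupVal ψ I B) {t : ℝ} (ht : t ∈ I) :
    DifferentiableAt ℝ ψ t := by
  have hint : t ∈ interior I := by rwa [hIo.interior_eq]
  set R := derivWithin ψ (Ioi t) t with hR
  set L := derivWithin ψ (Iio t) t with hL
  have hLR : L ≤ R := hc.leftDeriv_le_rightDeriv_of_mem_interior hint
  have hRd : HasDerivWithinAt ψ R (Ioi t) t := hc.hasDerivWithinAt_rightDeriv_of_mem_interior hint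
  have hLd : HasDerivWithinAt ψ L (Iio t) t := hc.hasDerivWithinAt_leftDeriv_of_mem_interior hint
  rcases eq_or_lt_of_le hLR with heq | hlt
  · rw [← heq] at hRd
    have : HasDerivAt ψ L t := by
      rw [hasDerivAt_iff_tendsto_slope_left_right]
      refine ⟨?_, ?_⟩
      · have := (hasDerivWithinAt_iff_tendsto_slope' (s := Iio t) (by simp)).1 hLd
        exact this
      · have := (hasDerivWithinAt_iff_tendsto_slope' (s := Ioi t) (by simp)).1 hRd
        exact this
    exact this.differentiableAt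
  · exfalso
    -- a nonzero slope strictly between
    obtain ⟨p, hp1, hp2, hp0⟩ : ∃ p, L < p ∧ p < R ∧ p ≠ 0 := by
      by_cases h0 : (2 * L + R) / 3 = 0
      · refine ⟨(L + 2 * R) / 3, by linarith, by linarith, ?_⟩
        intro h
        linarith
      · exact ⟨(2 * L + R) / 3, by linarith, by linarith, h0⟩
    set k := (|B| + 1) / (2 * p ^ 2) with hk
    have hk0 : 0 < k := by positivity
    have hkp : p ^ 2 * (2 * k) = |B| + 1 := by
      rw [hk]; field_simp
    have hδ1 : 0 < (R - p) / k := div_pos (by linarith) hk0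
    have hδ2 : 0 < (p - L) / k := div_pos (by linarith) hk0
    set δ := min ((R - p) / k) ((p - L) / k) with hδ
    have hδ0 : 0 < δ := lt_min hδ1 hδ2
    have hloc : IsLocalMin (fun s => ψ s - quad (ψ t) p k t s) t := by
      filter_upwards [hIo.mem_nhds ht, Ioo_mem_nhds (show t - δ < t by linarith)
        (show t < t + δ by linarith)] with s hs hsδ
      simp only [quad, sub_self, mul_zero, add_zero, ne_eq, OfNat.ofNat_ne_zero,
        not_false_eq_true, zero_pow]
      rcases lt_trichotomy s t with hst | rfl | hst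
      · have h1 := hc.slope_le_leftDeriv_of_mem_interior hs hint hst
        rw [slope_def_field] at h1
        have h2 : 0 < t - s := sub_pos.2 hst
        rw [div_le_iff₀ h2] at h1
        have h3 : (t - s) ≤ (p - L) / k := by
          have := hsδ.1
          have h4 : δ ≤ (p - L) / k := min_le_right _ _
          linarith
        have h5 : k * (t - s) ≤ p - L := by
          rwa [le_div_iff₀ hk0, mul_comm] at h3
        nlinarith
      · simp
      · have h1 := hc.rightDeriv_le_slope_of_mem_interior hint hs hst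
        rw [slope_def_field] at h1
        have h2 : 0 < s - t := sub_pos.2 hst
        rw [le_div_iff₀ h2] at h1
        have h3 : (s - t) ≤ (R - p) / k := by
          have := hsδ.2
          have h4 : δ ≤ (R - p) / k := min_le_left _ _
          linarith
        have h5 : k * (s - t) ≤ R - p := by
          rwa [le_div_iff₀ hk0, mul_comm] at h3
        nlinarith
    have hG := hsup t ht _ ((contDiff_quad (ψ t) p k t).contDiffAt) hloc
    rw [G_quad] at hG
    simp only [sub_self, mul_zero, add_zero] at hG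
    rw [hkp] at hG
    have := le_abs_self B
    linarith

/-- With `G ≥ A > 0` from above the derivative has at most one zero. -/
theorem deriv_zero_unique {ψ : ℝ → ℝ} {I : Set ℝ} (hIc : I.OrdConnected) (hc : ConvexOn ℝ I ψ)
    (hd : ∀ t ∈ I, DifferentiableAt ℝ ψ t) {A : ℝ} (hA : 0 < A) (hsub : SubVal ψ I A) :
    ∀ z₁ ∈ I, ∀ z₂ ∈ I, deriv ψ z₁ = 0 → deriv ψ z₂ = 0 → z₁ = z₂ := by
  have key : ∀ z₁ ∈ I, ∀ z₂ ∈ I, deriv ψ z₁ = 0 → deriv ψ z₂ = 0 → z₁ < z₂ → False := by
    intro z₁ hz₁ z₂ hz₂ h1 h2 hlt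
    have hmono := hc.monotoneOn_deriv hd
    have hsub' : Icc z₁ z₂ ⊆ I := hIc.out hz₁ hz₂
    have hconst : ∀ x ∈ Icc z₁ z₂, ψ x = ψ z₁ := by
      refine constant_of_has_deriv_right_zero
        (fun x hx => (hd x (hsub' hx)).continuousAt.continuousWithinAt) fun x hx => ?_
      have hxI : x ∈ Icc z₁ z₂ := ⟨hx.1, hx.2.le⟩
      have h3 : deriv ψ x = 0 := by
        apply le_antisymm
        · rw [← h2]
          exact hmono (hsub' hxI) hz₂ hx.2.le
        · rw [← h1]
          exact hmono hz₁ (hsub' hxI) hx.1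
      have h4 := (hd x (hsub' hxI)).hasDerivAt
      rw [h3] at h4
      exact h4.hasDerivWithinAt
    set z := (z₁ + z₂) / 2 with hz
    have hzI : z ∈ Ioo z₁ z₂ := ⟨by rw [hz]; linarith, by rw [hz]; linarith⟩
    have hloc : IsLocalMax (fun s => ψ s - quad 0 0 0 0 s) z := by
      filter_upwards [Ioo_mem_nhds hzI.1 hzI.2] with s hs
      simp only [quad]
      rw [hconst s ⟨hs.1.le, hs.2.le⟩, hconst z ⟨hzI.1.le, hzI.2.le⟩]
      simp
    have hG := hsub z (hsub' ⟨hzI.1.le, hzI.2.le⟩) _ ((contDiff_quad 0 0 0 0).contDiffAt) hloc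
    rw [G_quad] at hG
    norm_num at hG
    linarith
  intro z₁ hz₁ z₂ hz₂ h1 h2
  rcases lt_trichotomy z₁ z₂ with h | h | h
  · exact (key z₁ hz₁ z₂ hz₂ h1 h2 h).elim
  · exact h
  · exact (key z₂ hz₂ z₁ hz₁ h2 h1 h).elim

end Vale.Agent.Lib.P080
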