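import Mathlib

/-!
# P080: infinity-harmonic functions on open subsets of `ℝⁿ`, in coordinates

`pd i f x` is the partial derivative, `infLap φ z = ∑ φᵢ φⱼ φᵢⱼ` the infinity Laplacian, and
`IsInfHarmonic Ω u` says that `u` is continuous on `Ω` and a viscosity solution of `Δ_∞ u = 0`.
-/

namespace Vale.Agent.Lib.P080

variable {n : ℕ}

/-- The partial derivative `∂ᵢ f (x)`: the derivative at `x i` of `f` along the line through `x`
in coordinate direction `i`. -/
noncomputable def pd (i : Fin n) (f : (Fin n → ℝ) → ℝ) (x : Fin n → ℝ) : ℝ :=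
  deriv (fun t => f (Function.update x i t)) (x i)

/-- The infinity Laplacian `Δ_∞ φ (z) = ∑ᵢⱼ φᵢ φⱼ φᵢⱼ`. -/
noncomputable def infLap (φ : (Fin n → ℝ) → ℝ) (z : Fin n → ℝ) : ℝ :=
  ∑ i, ∑ j, pd i φ z * pd j φ z * pd i (pd j φ) z

/-- `u` is infinity-harmonic on `Ω`: continuous on `Ω`, and whenever `φ` is `C²` near `z ∈ Ω` and
`u - φ` has a local maximum (minimum) at `z`, then `Δ_∞ φ (z) ≥ 0` (`≤ 0`). All test functions are
used, also those with vanishing gradient at `z`. -/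
def IsInfHarmonic (Ω : Set (Fin n → ℝ)) (u : (Fin n → ℝ) → ℝ) : Prop :=
  ContinuousOn u Ω ∧ ∀ z ∈ Ω, ∀ φ : (Fin n → ℝ) → ℝ, ContDiffAt ℝ 2 φ z →
    (IsLocalMax (fun x => u x - φ x) z → 0 ≤ infLap φ z) ∧
    (IsLocalMin (fun x => u x - φ x) z → infLap φ z ≤ 0)

end Vale.Agent.Lib.P080
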