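import Mathlib

/-!
# P080: one-dimensional jets

`G f = (f')² f''` is the one-dimensional infinity Laplacian. `SubVal ψ I A`: every `C²` function
touching `ψ` from above at a point of `I` has `G ≥ A` there. `SupVal ψ I B`: every `C²` function
touching `ψ` from below has `G ≤ B` there.
-/

open Set Filter Topology

namespace Vale.Agent.Lib.P080

/-- The one-dimensional infinity Laplacian `(f')² f''`. -/
noncomputable def G (f : ℝ → ℝ) (t : ℝ) : ℝ := (deriv f t) ^ 2 * deriv (deriv f) t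

/-- Every `C²` function touching `ψ` from above at a point of `I` has `G ≥ A` there. -/
def SubVal (ψ : ℝ → ℝ) (I : Set ℝ) (A : ℝ) : Prop :=
  ∀ t ∈ I, ∀ f : ℝ → ℝ, ContDiffAt ℝ 2 f t → IsLocalMax (fun s => ψ s - f s) t → A ≤ G f t

/-- Every `C²` function touching `ψ` from below at a point of `I` has `G ≤ B` there. -/
def SupVal (ψ : ℝ → ℝ) (I : Set ℝ) (B : ℝ) : Prop :=
  ∀ t ∈ I, ∀ f : ℝ → ℝ, ContDiffAt ℝ 2 f t → IsLocalMin (fun s => ψ s - f s) t → G f t ≤ B

/-- A quadratic polynomial in vertex form. -/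
noncomputable def quad (e p k t₀ : ℝ) (s : ℝ) : ℝ := e + p * (s - t₀) + k * (s - t₀) ^ 2

theorem quad_hasDeriv (e p k t₀ s : ℝ) :
    HasDerivAt (quad e p k t₀) (p + 2 * k * (s - t₀)) s := by
  have h1 : HasDerivAt (fun s => s - t₀) 1 s := (hasDerivAt_id' s).sub_const t₀
  have h2 := ((h1.const_mul p).fun_add ((h1.fun_pow 2).const_mul k)).const_add e
  have e1 : quad e p k t₀ = fun x => e + (p * (x - t₀) + k * (x - t₀) ^ 2) := by
    funext x
    simp [quad, add_assoc]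
  rw [e1]
  exact h2.congr_deriv (by simp; ring)

theorem deriv_quad (e p k t₀ : ℝ) :
    deriv (quad e p k t₀) = fun s => p + 2 * k * (s - t₀) :=
  funext fun s => (quad_hasDeriv e p k t₀ s).deriv

theorem deriv_deriv_quad (e p k t₀ s : ℝ) : deriv (deriv (quad e p k t₀)) s = 2 * k := by
  rw [deriv_quad]
  have h1 : HasDerivAt (fun s => s - t₀) 1 s := (hasDerivAt_id' s).sub_const t₀
  have h2 := (h1.const_mul (2 * k)).const_add p
  simp

theorem G_quad (e p k t₀ s : ℝ) :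
    G (quad e p k t₀) s = (p + 2 * k * (s - t₀)) ^ 2 * (2 * k) := by
  unfold G
  rw [deriv_deriv_quad, deriv_quad]

theorem contDiff_quad (e p k t₀ : ℝ) : ContDiff ℝ 2 (quad e p k t₀) := by
  unfold quad
  fun_prop

/-- An interior maximum from the values at three points. -/
theorem exists_localMax_of_endpoints {g : ℝ → ℝ} {x1 x2 x3 : ℝ} (h12 : x1 < x2) (h23 : x2 < x3)
    (hg : ContinuousOn g (Icc x1 x3)) (h1 : g x1 < g x2) (h3 : g x3 < g x2) :
    ∃ x0 ∈ Ioo x1 x3, IsLocalMax g x0 ∧ ∀ t ∈ Icc x1 x3, g t ≤ g x0 := by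
  obtain ⟨x0, hx0, hmax⟩ := isCompact_Icc.exists_isMaxOn (nonempty_Icc.2 (h12.trans h23).le) hg
  have hle : g x2 ≤ g x0 := hmax ⟨h12.le, h23.le⟩
  have hne1 : x1 ≠ x0 := by
    rintro rfl
    linarith
  have hne3 : x0 ≠ x3 := by
    rintro rfl
    linarith
  have hIoo : x0 ∈ Ioo x1 x3 := ⟨lt_of_le_of_ne hx0.1 hne1, lt_of_le_of_ne hx0.2 hne3⟩
  exact ⟨x0, hIoo, hmax.isLocalMax (Icc_mem_nhds hIoo.1 hIoo.2), fun t ht => hmax ht⟩

/-- An interior maximum from the signs of the derivative at the ends. -/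
theorem exists_localMax_of_deriv {g g' : ℝ → ℝ} {x1 x2 : ℝ} (h12 : x1 < x2)
    (hg : ∀ t ∈ Icc x1 x2, HasDerivAt g (g' t) t) (h1 : 0 < g' x1) (h2 : g' x2 < 0) :
    ∃ x0 ∈ Ioo x1 x2, IsLocalMax g x0 ∧ g' x0 = 0 := by
  have hcont : ContinuousOn g (Icc x1 x2) := fun t ht =>
    (hg t ht).continuousAt.continuousWithinAt
  obtain ⟨x0, hx0, hmax⟩ := isCompact_Icc.exists_isMaxOn (nonempty_Icc.2 h12.le) hcont
  have hd1 := hg x1 ⟨le_rfl, h12.le⟩
  have hd2 := hg x2 ⟨h12.le, le_rfl⟩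
  have hne1 : x1 ≠ x0 := by
    rintro rfl
    have hs : ∀ᶠ s in 𝓝[>] x1, 0 < slope g x1 s :=
      (hd1.tendsto_slope.mono_left (nhdsGT_le_nhdsNE x1)).eventually (lt_mem_nhds h1)
    obtain ⟨s, hs1, hs2⟩ := (hs.and (Ioo_mem_nhdsGT h12)).exists
    have h3 : g s ≤ g x1 := hmax ⟨hs2.1.le, hs2.2.le⟩
    rw [slope_def_field] at hs1
    have h4 : 0 < s - x1 := sub_pos.2 hs2.1
    have := (div_pos_iff_of_pos_right h4).1 hs1
    linarith
  have hne2 : x0 ≠ x2 := by
    rintro rfl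
    have hs : ∀ᶠ s in 𝓝[<] x0, slope g x0 s < 0 :=
      (hd2.tendsto_slope.mono_left (nhdsLT_le_nhdsNE x0)).eventually (gt_mem_nhds h2)
    obtain ⟨s, hs1, hs2⟩ := (hs.and (Ioo_mem_nhdsLT h12)).exists
    have h3 : g s ≤ g x0 := hmax ⟨hs2.1.le, hs2.2.le⟩
    rw [slope_def_field] at hs1
    have h4 : s - x0 < 0 := sub_neg.2 hs2.2
    have h5 : 0 < g s - g x0 := by
      by_contra hcon
      push Not at hcon
      have := div_nonneg_of_nonpos hcon h4.le
      linarith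
    linarith
  have hIoo : x0 ∈ Ioo x1 x2 := ⟨lt_of_le_of_ne hx0.1 hne1, lt_of_le_of_ne hx0.2 hne2⟩
  have hloc : IsLocalMax g x0 := hmax.isLocalMax (Icc_mem_nhds hIoo.1 hIoo.2)
  exact ⟨x0, hIoo, hloc, hloc.hasDerivAt_eq_zero (hg x0 ⟨hIoo.1.le, hIoo.2.le⟩)⟩

/-- An interior minimum from the signs of the derivative at the ends. -/
theorem exists_localMin_of_deriv {g g' : ℝ → ℝ} {x1 x2 : ℝ} (h12 : x1 < x2)
    (hg : ∀ t ∈ Icc x1 x2, HasDerivAt g (g' t) t) (h1 : g' x1 < 0) (h2 : 0 < g' x2) :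
    ∃ x0 ∈ Ioo x1 x2, IsLocalMin g x0 ∧ g' x0 = 0 := by
  obtain ⟨x0, hx0, hmax, hz⟩ := exists_localMax_of_deriv (g := fun t => - g t)
    (g' := fun t => - g' t) h12 (fun t ht => (hg t ht).fun_neg) (by simpa using h1)
    (by simpa using h2)
  refine ⟨x0, hx0, ?_, by simpa using hz⟩
  have := hmax.neg
  simpa using this

/-! ### Reflection `ψ ↦ -ψ` -/

theorem G_neg (f : ℝ → ℝ) (t : ℝ) : G (fun s => - f s) t = - G f t := by
  unfold G
  have h1 : deriv (fun s => - f s) = fun s => - deriv f s := deriv.fun_neg'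
  rw [h1]
  have h2 : deriv (fun s => - deriv f s) t = - deriv (deriv f) t := deriv.fun_neg
  rw [h2]
  ring

theorem subVal_neg {ψ : ℝ → ℝ} {I : Set ℝ} {B : ℝ} (h : SupVal ψ I B) :
    SubVal (fun s => - ψ s) I (-B) := by
  intro t ht f hf hloc
  have h1 : IsLocalMin (fun s => ψ s - (fun s => - f s) s) t := by
    have := hloc.neg
    simpa [sub_eq_add_neg, add_comm] using this
  have h2 := h t ht (fun s => - f s) hf.neg h1
  rw [G_neg] at h2
  linarith

theorem supVal_neg {ψ : ℝ → ℝ} {I : Set ℝ} {A : ℝ} (h : SubVal ψ I A) :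
    SupVal (fun s => - ψ s) I (-A) := by
  intro t ht f hf hloc
  have h1 : IsLocalMax (fun s => ψ s - (fun s => - f s) s) t := by
    have := hloc.neg
    simpa [sub_eq_add_neg, add_comm] using this
  have h2 := h t ht (fun s => - f s) hf.neg h1
  rw [G_neg] at h2
  linarith

end Vale.Agent.Lib.P080
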