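import Vale.Agent.Lib.P080.Convex

/-!
# P080: the exact solutions `|3Ct + D|^(4/3) / (4C)` as test functions
-/

open Set Filter Topology

namespace Vale.Agent.Lib.P080

/-- The signed cube root. -/
noncomputable def cbrt (τ : ℝ) : ℝ := |τ| ^ (-(2 / 3 : ℝ)) * τ

theorem cbrt_cube (τ : ℝ) : cbrt τ ^ 3 = τ := by
  unfold cbrt
  rcases eq_or_ne τ 0 with rfl | hτ
  · simp
  have habs : 0 < |τ| := abs_pos.2 hτ
  rw [mul_pow, ← Real.rpow_natCast (|τ| ^ (-(2 / 3 : ℝ))) 3, ← Real.rpow_mul habs.le]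
  have e : -(2 / 3 : ℝ) * ((3 : ℕ) : ℝ) = -2 := by norm_num
  rw [e, Real.rpow_neg habs.le]
  have h2 : |τ| ^ (2 : ℝ) = τ ^ 2 := by
    rw [Real.rpow_two, sq_abs]
  rw [h2]
  field_simp

/-- The exact solution of `(f')² f'' = C` with `(f')³ = 3Ct + D`. -/
noncomputable def fCD (C D t : ℝ) : ℝ := |3 * C * t + D| ^ (4 / 3 : ℝ) / (4 * C)

theorem fCD_hasDeriv {C : ℝ} (hC : 0 < C) (D t : ℝ) :
    HasDerivAt (fCD C D) (cbrt (3 * C * t + D)) t := by
  have h1 : HasDerivAt (fun s : ℝ => 3 * C * s + D) (3 * C) t := by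
    simpa using ((hasDerivAt_id' t).const_mul (3 * C)).add_const D
  have h2 := hasDerivAt_abs_rpow (3 * C * t + D) (p := 4 / 3) (by norm_num)
  have h3 := (h2.comp t h1).div_const (4 * C)
  refine HasDerivAt.congr_deriv (f' := _) h3 ?_
  unfold cbrt
  have e : (4 / 3 : ℝ) - 2 = -(2 / 3 : ℝ) := by norm_num
  rw [e]
  field_simp

theorem deriv_fCD {C : ℝ} (hC : 0 < C) (D : ℝ) :
    deriv (fCD C D) = fun t => cbrt (3 * C * t + D) :=
  funext fun t => (fCD_hasDeriv hC D t).deriv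

theorem fCD_contDiffAt {C D t : ℝ} (hτ : 3 * C * t + D ≠ 0) :
    ContDiffAt ℝ 2 (fCD C D) t := by
  have h1 : ContDiffAt ℝ 2 (fun s : ℝ => 3 * C * s + D) t := by fun_prop
  have h2 : ContDiffAt ℝ 2 (fun s : ℝ => |3 * C * s + D|) t :=
    ContDiffAt.comp (g := fun x : ℝ => |x|) t (contDiffAt_abs hτ) h1
  have h3 := h2.rpow_const_of_ne (p := 4 / 3) (abs_ne_zero.2 hτ)
  exact h3.div_const (4 * C)

theorem cbrt_differentiableAt {τ : ℝ} (hτ : τ ≠ 0) : DifferentiableAt ℝ cbrt τ := by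
  unfold cbrt
  have h1 : DifferentiableAt ℝ (fun s : ℝ => |s|) τ := (contDiffAt_abs (n := 1) hτ).differentiableAt (by simp)
  have h2 := h1.rpow_const (p := -(2 / 3 : ℝ)) (Or.inl (abs_ne_zero.2 hτ))
  exact h2.mul differentiableAt_id

/-- `(f')² f'' = C` away from the singular point. -/
theorem G_fCD {C D t : ℝ} (hC : 0 < C) (hτ : 3 * C * t + D ≠ 0) : G (fCD C D) t = C := by
  unfold G
  rw [deriv_fCD hC]
  have hdiff : DifferentiableAt ℝ (fun s => cbrt (3 * C * s + D)) t := by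
    have h1 : DifferentiableAt ℝ (fun s : ℝ => 3 * C * s + D) t := by fun_prop
    exact (cbrt_differentiableAt hτ).comp t h1
  have h2 := hdiff.hasDerivAt.fun_pow 3
  have e : (fun s => cbrt (3 * C * s + D) ^ 3) = fun s => 3 * C * s + D := by
    funext s
    exact cbrt_cube _
  rw [e] at h2
  have h3 : HasDerivAt (fun s : ℝ => 3 * C * s + D) (3 * C) t := by
    simpa using ((hasDerivAt_id' t).const_mul (3 * C)).add_const D
  have h4 := h2.unique h3
  simp only [Nat.cast_ofNat] at h4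
  have h5 : (3 - 1 : ℕ) = 2 := rfl
  rw [h5] at h4
  linarith

/-- Comparing a number with a signed cube root through cubes. -/
theorem lt_cbrt_iff (a τ : ℝ) : cbrt τ < a ↔ τ < a ^ 3 := by
  have h := (Odd.strictMono_pow (R := ℝ) (n := 3) (by decide)).lt_iff_lt (a := cbrt τ) (b := a)
  simp only [cbrt_cube] at h
  exact h.symm

theorem cbrt_lt_iff (a τ : ℝ) : a < cbrt τ ↔ a ^ 3 < τ := by
  have h := (Odd.strictMono_pow (R := ℝ) (n := 3) (by decide)).lt_iff_lt (a := a) (b := cbrt τ)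
  simp only [cbrt_cube] at h
  exact h.symm

/-- A value `D` strictly between `r₂` and `r₁` missing the critical point of `ψ`. -/
theorem exists_good_D {I : Set ℝ} {w : ℝ → ℝ} {C : ℝ}
    (hz : ∀ z₁ ∈ I, ∀ z₂ ∈ I, w z₁ = 0 → w z₂ = 0 → z₁ = z₂) {r₁ r₂ : ℝ} (h : r₂ < r₁) :
    ∃ D, r₂ < D ∧ D < r₁ ∧ ∀ z ∈ I, w z = 0 → D ≠ - (3 * C * z) := by
  by_cases hex : ∃ z ∈ I, w z = 0
  · obtain ⟨z, hzI, hzw⟩ := hex
    by_cases h0 : (2 * r₂ + r₁) / 3 = - (3 * C * z)
    · refine ⟨(r₂ + 2 * r₁) / 3, by linarith, by linarith, fun z' hz' hw' => ?_⟩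
      rw [hz z' hz' z hzI hw' hzw]
      intro h1
      linarith
    · refine ⟨(2 * r₂ + r₁) / 3, by linarith, by linarith, fun z' hz' hw' => ?_⟩
      rw [hz z' hz' z hzI hw' hzw]
      exact h0
  · push Not at hex
    refine ⟨(r₂ + r₁) / 2, by linarith, by linarith, fun z hzI hw => ?_⟩
    exact absurd hw (hex z hzI)

/-- If `(ψ')³ - 3Ct` drops between two points, the exact solution touches from above somewhere. -/
theorem sub_slope {ψ : ℝ → ℝ} {I : Set ℝ} (hIc : I.OrdConnected)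
    (hd : ∀ t ∈ I, DifferentiableAt ℝ ψ t)
    (hz : ∀ z₁ ∈ I, ∀ z₂ ∈ I, deriv ψ z₁ = 0 → deriv ψ z₂ = 0 → z₁ = z₂)
    {A : ℝ} (hsub : SubVal ψ I A) {C : ℝ} (hC : 0 < C) {x1 x2 : ℝ} (hx1 : x1 ∈ I) (hx2 : x2 ∈ I)
    (h12 : x1 < x2)
    (hr : (deriv ψ x2) ^ 3 - 3 * C * x2 < (deriv ψ x1) ^ 3 - 3 * C * x1) : A ≤ C := by
  obtain ⟨D, hD2, hD1, hDz⟩ := exists_good_D (C := C) hz hr
  have hsubset : Icc x1 x2 ⊆ I := hIc.out hx1 hx2
  have hg : ∀ t ∈ Icc x1 x2, HasDerivAt (fun s => ψ s - fCD C D s)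
      (deriv ψ t - cbrt (3 * C * t + D)) t := fun t ht =>
    (hd t (hsubset ht)).hasDerivAt.fun_sub (fCD_hasDeriv hC D t)
  obtain ⟨x0, hx0, hloc, hzero⟩ := exists_localMax_of_deriv (g' := fun t =>
    deriv ψ t - cbrt (3 * C * t + D)) h12 hg
    (by
      have := (lt_cbrt_iff (deriv ψ x1) (3 * C * x1 + D)).2 (by linarith)
      simpa using this)
    (by
      have := (cbrt_lt_iff (deriv ψ x2) (3 * C * x2 + D)).2 (by linarith)
      simpa using this)
  have hx0I : x0 ∈ I := hsubset ⟨hx0.1.le, hx0.2.le⟩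
  have heq : deriv ψ x0 = cbrt (3 * C * x0 + D) := by
    simpa [sub_eq_zero] using hzero
  have hτ : 3 * C * x0 + D ≠ 0 := by
    intro h0
    have h1 : deriv ψ x0 = 0 := by
      rw [heq, h0]
      simp [cbrt]
    have := hDz x0 hx0I h1
    apply this
    linarith
  have h := hsub x0 hx0I _ (fCD_contDiffAt hτ) hloc
  rwa [G_fCD hC hτ] at h

/-- If `(ψ')³ - 3Ct` rises between two points, the exact solution touches from below somewhere. -/
theorem sup_slope {ψ : ℝ → ℝ} {I : Set ℝ} (hIc : I.OrdConnected)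
    (hd : ∀ t ∈ I, DifferentiableAt ℝ ψ t)
    (hz : ∀ z₁ ∈ I, ∀ z₂ ∈ I, deriv ψ z₁ = 0 → deriv ψ z₂ = 0 → z₁ = z₂)
    {B : ℝ} (hsup : SupVal ψ I B) {C : ℝ} (hC : 0 < C) {x1 x2 : ℝ} (hx1 : x1 ∈ I) (hx2 : x2 ∈ I)
    (h12 : x1 < x2)
    (hr : (deriv ψ x1) ^ 3 - 3 * C * x1 < (deriv ψ x2) ^ 3 - 3 * C * x2) : C ≤ B := by
  obtain ⟨D, hD2, hD1, hDz⟩ := exists_good_D (C := C) hz hr
  have hsubset : Icc x1 x2 ⊆ I := hIc.out hx1 hx2
  have hg : ∀ t ∈ Icc x1 x2, HasDerivAt (fun s => ψ s - fCD C D s)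
      (deriv ψ t - cbrt (3 * C * t + D)) t := fun t ht =>
    (hd t (hsubset ht)).hasDerivAt.fun_sub (fCD_hasDeriv hC D t)
  obtain ⟨x0, hx0, hloc, hzero⟩ := exists_localMin_of_deriv (g' := fun t =>
    deriv ψ t - cbrt (3 * C * t + D)) h12 hg
    (by
      have := (cbrt_lt_iff (deriv ψ x1) (3 * C * x1 + D)).2 (by linarith)
      simpa using this)
    (by
      have := (lt_cbrt_iff (deriv ψ x2) (3 * C * x2 + D)).2 (by linarith)
      simpa using this)
  have hx0I : x0 ∈ I := hsubset ⟨hx0.1.le, hx0.2.le⟩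
  have heq : deriv ψ x0 = cbrt (3 * C * x0 + D) := by
    simpa [sub_eq_zero] using hzero
  have hτ : 3 * C * x0 + D ≠ 0 := by
    intro h0
    have h1 : deriv ψ x0 = 0 := by
      rw [heq, h0]
      simp [cbrt]
    have := hDz x0 hx0I h1
    apply this
    linarith
  have h := hsup x0 hx0I _ (fCD_contDiffAt hτ) hloc
  rwa [G_fCD hC hτ] at h

/-- The positive case: slope bounds for `(ψ')³`. -/
theorem pos_case {ψ : ℝ → ℝ} {I : Set ℝ} (hIo : IsOpen I) (hIc : I.OrdConnected)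
    (hcont : ContinuousOn ψ I) {A B : ℝ} (hA : 0 < A) (hsub : SubVal ψ I A) (hsup : SupVal ψ I B) :
    (∀ t ∈ I, DifferentiableAt ℝ ψ t) ∧ ∀ x1 ∈ I, ∀ x2 ∈ I, x1 < x2 → ∀ C, 0 < C →
      (C < A → 3 * C * (x2 - x1) ≤ (deriv ψ x2) ^ 3 - (deriv ψ x1) ^ 3) ∧
      (B < C → (deriv ψ x2) ^ 3 - (deriv ψ x1) ^ 3 ≤ 3 * C * (x2 - x1)) := by
  have hsub0 : SubVal ψ I 0 := fun t ht f hf hloc => hA.le.trans (hsub t ht f hf hloc)
  have hc := convexOn_of_subVal hIc hcont hsub0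
  have hd : ∀ t ∈ I, DifferentiableAt ℝ ψ t := fun t ht =>
    differentiableAt_of_convex hIo hc hsup ht
  have hz := deriv_zero_unique hIc hc hd hA hsub
  refine ⟨hd, fun x1 hx1 x2 hx2 h12 C hC => ⟨fun hCA => ?_, fun hBC => ?_⟩⟩
  · by_contra hcon
    push Not at hcon
    have := sub_slope hIc hd hz hsub hC hx1 hx2 h12 (by nlinarith)
    linarith
  · by_contra hcon
    push Not at hcon
    have := sup_slope hIc hd hz hsup hC hx1 hx2 h12 (by nlinarith)
    linarith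

/-- Two points of a nonempty open set. -/
theorem exists_two_points {I : Set ℝ} (hIo : IsOpen I) (hne : I.Nonempty) :
    ∃ x1 ∈ I, ∃ x2 ∈ I, x1 < x2 := by
  obtain ⟨x, hx⟩ := hne
  obtain ⟨ε, hε, hball⟩ := Metric.isOpen_iff.1 hIo x hx
  refine ⟨x, hx, x + ε / 2, hball ?_, by linarith⟩
  rw [Metric.mem_ball, Real.dist_eq]
  have : x + ε / 2 - x = ε / 2 := by ring
  rw [this, abs_of_pos (by linarith)]
  linarith

/-- `A ≤ B` when `A > 0`. -/
theorem le_of_pos {ψ : ℝ → ℝ} {I : Set ℝ} (hIo : IsOpen I) (hIc : I.OrdConnected)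
    (hne : I.Nonempty) (hcont : ContinuousOn ψ I) {A B : ℝ} (hA : 0 < A) (hsub : SubVal ψ I A)
    (hsup : SupVal ψ I B) : A ≤ B := by
  by_contra hBA
  push Not at hBA
  obtain ⟨_, hbd⟩ := pos_case hIo hIc hcont hA hsub hsup
  obtain ⟨x1, hx1, x2, hx2, h12⟩ := exists_two_points hIo hne
  set m := max B 0 with hm
  have hm0 : 0 ≤ m := le_max_right _ _
  have hmB : B ≤ m := le_max_left _ _
  have hmA : m < A := max_lt hBA hA
  have h1 := (hbd x1 hx1 x2 hx2 h12 ((2 * A + m) / 3) (by linarith)).1 (by linarith)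
  have h2 := (hbd x1 hx1 x2 hx2 h12 ((A + 2 * m) / 3) (by linarith)).2 (by linarith)
  have h3 : 0 < x2 - x1 := sub_pos.2 h12
  nlinarith

/-- Jets from above and below cannot leave a gap: `A ≤ B`. -/
theorem sub_le_sup {ψ : ℝ → ℝ} {I : Set ℝ} (hIo : IsOpen I) (hIc : I.OrdConnected)
    (hne : I.Nonempty) (hcont : ContinuousOn ψ I) {A B : ℝ} (hsub : SubVal ψ I A)
    (hsup : SupVal ψ I B) : A ≤ B := by
  by_cases hA : 0 < A
  · exact le_of_pos hIo hIc hne hcont hA hsub hsup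
  by_cases hB : B < 0
  · have := le_of_pos hIo hIc hne hcont.neg (A := -B) (B := -A) (by linarith) (subVal_neg hsup)
      (supVal_neg hsub)
    linarith
  · linarith

/-- The exact one-dimensional classification in the positive case. -/
theorem rigid_pos {ψ : ℝ → ℝ} {I : Set ℝ} (hIo : IsOpen I) (hIc : I.OrdConnected)
    (hne : I.Nonempty) (hcont : ContinuousOn ψ I) {c : ℝ} (hc : 0 < c) (hsub : SubVal ψ I c)
    (hsup : SupVal ψ I c) :
    ∃ D, ∀ t ∈ I, DifferentiableAt ℝ ψ t ∧ (deriv ψ t) ^ 3 = 3 * c * t + D := by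
  obtain ⟨hd, hbd⟩ := pos_case hIo hIc hcont hc hsub hsup
  have hslope : ∀ x1 ∈ I, ∀ x2 ∈ I, x1 < x2 →
      (deriv ψ x2) ^ 3 - (deriv ψ x1) ^ 3 = 3 * c * (x2 - x1) := by
    intro x1 hx1 x2 hx2 h12
    have h3 : 0 < x2 - x1 := sub_pos.2 h12
    apply le_antisymm
    · apply le_of_forall_pos_le_add
      intro ε hε
      have hC : c < c + ε / (3 * (x2 - x1)) := by
        have : 0 < ε / (3 * (x2 - x1)) := by positivity
        linarith
      have h := (hbd x1 hx1 x2 hx2 h12 _ (by linarith)).2 hC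
      have e : 3 * (c + ε / (3 * (x2 - x1))) * (x2 - x1) = 3 * c * (x2 - x1) + ε := by
        field_simp
      linarith
    · apply le_of_forall_pos_le_add
      intro ε hε
      by_cases hsmall : ε < 3 * c * (x2 - x1)
      · have hq : 0 < ε / (3 * (x2 - x1)) := by positivity
        have hC : c - ε / (3 * (x2 - x1)) < c := by linarith
        have hC0 : 0 < c - ε / (3 * (x2 - x1)) := by
          rw [sub_pos, div_lt_iff₀ (by positivity)]
          linarith
        have h := (hbd x1 hx1 x2 hx2 h12 _ hC0).1 hC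
        have e : 3 * (c - ε / (3 * (x2 - x1))) * (x2 - x1) = 3 * c * (x2 - x1) - ε := by
          field_simp
        linarith
      · push Not at hsmall
        have h := (hbd x1 hx1 x2 hx2 h12 (c / 2) (by linarith)).1 (by linarith)
        have hpos : 0 < 3 * (c / 2) * (x2 - x1) := by positivity
        linarith
  obtain ⟨x₀, hx₀⟩ := hne
  refine ⟨(deriv ψ x₀) ^ 3 - 3 * c * x₀, fun t ht => ⟨hd t ht, ?_⟩⟩
  rcases lt_trichotomy t x₀ with h | h | h
  · have := hslope t ht x₀ hx₀ h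
    linarith
  · rw [h]
    ring
  · have := hslope x₀ hx₀ t ht h
    linarith

/-- The exact one-dimensional classification. -/
theorem rigid {ψ : ℝ → ℝ} {I : Set ℝ} (hIo : IsOpen I) (hIc : I.OrdConnected)
    (hne : I.Nonempty) (hcont : ContinuousOn ψ I) {c : ℝ} (hsub : SubVal ψ I c)
    (hsup : SupVal ψ I c) :
    ∃ D, ∀ t ∈ I, DifferentiableAt ℝ ψ t ∧ (deriv ψ t) ^ 3 = 3 * c * t + D := by
  rcases lt_trichotomy c 0 with hc | rfl | hc
  · obtain ⟨D, hD⟩ := rigid_pos (ψ := fun s => - ψ s) hIo hIc hne hcont.fun_neg (c := -c)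
      (by linarith) (subVal_neg hsup) (supVal_neg hsub)
    refine ⟨-D, fun t ht => ?_⟩
    obtain ⟨h1, h2⟩ := hD t ht
    have hd : DifferentiableAt ℝ ψ t := by
      have := h1.fun_neg
      simpa using this
    refine ⟨hd, ?_⟩
    have h3 : deriv (fun s => - ψ s) t = - deriv ψ t := deriv.fun_neg
    rw [h3] at h2
    have h4 : (- deriv ψ t) ^ 3 = - (deriv ψ t) ^ 3 := by ring
    rw [h4] at h2
    linarith
  · have hconv := convexOn_of_subVal hIc hcont hsub
    have hd : ∀ t ∈ I, DifferentiableAt ℝ ψ t := fun t ht =>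
      differentiableAt_of_convex hIo hconv hsup ht
    have hsub' : SubVal (fun s => - ψ s) I 0 := by simpa using subVal_neg hsup
    have hconv' := convexOn_of_subVal (ψ := fun s => - ψ s) hIc hcont.fun_neg hsub'
    have hd' : ∀ t ∈ I, DifferentiableAt ℝ (fun s => - ψ s) t := fun t ht => (hd t ht).fun_neg
    have hm := hconv.monotoneOn_deriv hd
    have hm' := hconv'.monotoneOn_deriv hd'
    have hcst : ∀ x ∈ I, ∀ y ∈ I, x ≤ y → deriv ψ x = deriv ψ y := by
      intro x hx y hy hxy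
      apply le_antisymm (hm hx hy hxy)
      have := hm' hx hy hxy
      have e : ∀ t, deriv (fun s => - ψ s) t = - deriv ψ t := fun t => deriv.fun_neg
      rw [e, e] at this
      linarith
    obtain ⟨x₀, hx₀⟩ := hne
    refine ⟨(deriv ψ x₀) ^ 3, fun t ht => ⟨hd t ht, ?_⟩⟩
    rcases le_total t x₀ with h | h
    · rw [hcst t ht x₀ hx₀ h]
      ring
    · rw [hcst x₀ hx₀ t ht h]
      ring
  · exact rigid_pos hIo hIc hne hcont hc hsub hsup

end Vale.Agent.Lib.P080
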