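import Vale.Agent.Lib.P080.Defs
import Vale.Agent.Lib.P080.Slope

/-!
# P080: classification of separable infinity-harmonic functions
-/

open Set Filter Topology

namespace Vale.Agent.Lib.P080

variable {n : ℕ}

/-! ### Sums under `Function.update` -/

theorem sum_update (φ : Fin n → ℝ → ℝ) (y : Fin n → ℝ) (i : Fin n) (t : ℝ) :
    ∑ k, φ k (Function.update y i t k) = φ i t + ∑ k ∈ Finset.univ.erase i, φ k (y k) := by
  rw [← Finset.add_sum_erase _ _ (Finset.mem_univ i), Function.update_self]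
  congr 1
  refine Finset.sum_congr rfl fun k hk => ?_
  rw [Function.update_of_ne (Finset.ne_of_mem_erase hk)]

/-! ### The infinity Laplacian of a separable test function -/

theorem pd_sum (f : Fin n → ℝ → ℝ) (j : Fin n) (y : Fin n → ℝ) :
    pd j (fun z => ∑ k, f k (z k)) y = deriv (f j) (y j) := by
  unfold pd
  have : (fun t => ∑ k, f k (Function.update y j t k)) =
      fun t => f j t + ∑ k ∈ Finset.univ.erase j, f k (y k) := by
    funext t
    exact sum_update f y j t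
  rw [this, deriv_add_const]

theorem pd_pd_sum (f : Fin n → ℝ → ℝ) (i j : Fin n) (x : Fin n → ℝ) :
    pd i (pd j (fun z => ∑ k, f k (z k))) x =
      if i = j then deriv (deriv (f i)) (x i) else 0 := by
  have h : pd j (fun z => ∑ k, f k (z k)) = fun y => deriv (f j) (y j) := by
    funext y
    exact pd_sum f j y
  rw [h]
  unfold pd
  by_cases hij : i = j
  · subst hij
    simp
  · have : (fun t => deriv (f j) (Function.update x i t j)) = fun _ => deriv (f j) (x j) := by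
      funext t
      rw [Function.update_of_ne (Ne.symm hij)]
    simp [this, hij]

theorem infLap_sum (f : Fin n → ℝ → ℝ) (z : Fin n → ℝ) :
    infLap (fun x => ∑ k, f k (x k)) z = ∑ i, G (f i) (z i) := by
  unfold infLap
  refine Finset.sum_congr rfl fun i _ => ?_
  rw [Finset.sum_eq_single i]
  · rw [pd_sum, pd_pd_sum, if_pos rfl]
    unfold G
    ring
  · intro j _ hj
    rw [pd_pd_sum, if_neg (Ne.symm hj), mul_zero]
  · intro h
    exact absurd (Finset.mem_univ i) h

theorem contDiffAt_sum {f : Fin n → ℝ → ℝ} {z : Fin n → ℝ}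
    (hf : ∀ k, ContDiffAt ℝ 2 (f k) (z k)) :
    ContDiffAt ℝ 2 (fun x : Fin n → ℝ => ∑ k, f k (x k)) z := by
  refine ContDiffAt.sum fun k _ => ?_
  exact ContDiffAt.comp (g := f k) (f := fun x : Fin n → ℝ => x k) z (hf k)
    (contDiff_apply ℝ ℝ k).contDiffAt

/-- Coordinatewise touching from above gives touching from above. -/
theorem isLocalMax_sum {φ f : Fin n → ℝ → ℝ} {z : Fin n → ℝ}
    (h : ∀ k, IsLocalMax (fun s => φ k s - f k s) (z k)) :
    IsLocalMax (fun x : Fin n → ℝ => ∑ k, φ k (x k) - ∑ k, f k (x k)) z := by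
  have h1 : ∀ k, ∀ᶠ x in 𝓝 z, φ k (x k) - f k (x k) ≤ φ k (z k) - f k (z k) := fun k =>
    (continuous_apply k).continuousAt.eventually (h k)
  filter_upwards [eventually_all.2 h1] with x hx
  rw [← Finset.sum_sub_distrib, ← Finset.sum_sub_distrib]
  exact Finset.sum_le_sum fun k _ => hx k

/-- Coordinatewise touching from below gives touching from below. -/
theorem isLocalMin_sum {φ f : Fin n → ℝ → ℝ} {z : Fin n → ℝ}
    (h : ∀ k, IsLocalMin (fun s => φ k s - f k s) (z k)) :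
    IsLocalMin (fun x : Fin n → ℝ => ∑ k, φ k (x k) - ∑ k, f k (x k)) z := by
  have h1 : ∀ k, ∀ᶠ x in 𝓝 z, φ k (z k) - f k (z k) ≤ φ k (x k) - f k (x k) := fun k =>
    (continuous_apply k).continuousAt.eventually (h k)
  filter_upwards [eventually_all.2 h1] with x hx
  rw [← Finset.sum_sub_distrib, ← Finset.sum_sub_distrib]
  exact Finset.sum_le_sum fun k _ => hx k

/-! ### Existence of touching functions -/

/-- A continuous function on a nonempty open set is touched from above somewhere. -/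
theorem exists_touch_above {ψ : ℝ → ℝ} {I : Set ℝ} (hIo : IsOpen I) (hIc : I.OrdConnected)
    (hne : I.Nonempty) (hcont : ContinuousOn ψ I) :
    ∃ t ∈ I, ∃ f : ℝ → ℝ, ContDiffAt ℝ 2 f t ∧ IsLocalMax (fun s => ψ s - f s) t := by
  obtain ⟨x₀, hx₀⟩ := hne
  obtain ⟨ε, hε, hball⟩ := Metric.isOpen_iff.1 hIo x₀ hx₀
  set δ := ε / 2 with hδ
  have hδ0 : 0 < δ := by positivity
  have hmem : ∀ y, |y - x₀| ≤ δ → y ∈ I := fun y hy => hball (by
    rw [Metric.mem_ball, Real.dist_eq]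
    rw [hδ] at hy
    linarith)
  have h1 : x₀ - δ ∈ I := hmem _ (by
    rw [show x₀ - δ - x₀ = -δ by ring, abs_neg, abs_of_pos hδ0])
  have h3 : x₀ + δ ∈ I := hmem _ (by
    rw [show x₀ + δ - x₀ = δ by ring, abs_of_pos hδ0])
  set K := (|ψ (x₀ - δ) - ψ x₀| + |ψ (x₀ + δ) - ψ x₀| + 1) / δ ^ 2 with hK
  have hKδ : K * δ ^ 2 = |ψ (x₀ - δ) - ψ x₀| + |ψ (x₀ + δ) - ψ x₀| + 1 := by
    rw [hK]; field_simp
  have hq := (contDiff_quad 0 0 K x₀).continuous
  have hg : ContinuousOn (fun s => ψ s - quad 0 0 K x₀ s) (Icc (x₀ - δ) (x₀ + δ)) :=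
    (hcont.mono (hIc.out h1 h3)).sub hq.continuousOn
  obtain ⟨t, ht, hloc, _⟩ := exists_localMax_of_endpoints (x1 := x₀ - δ) (x2 := x₀) (x3 := x₀ + δ)
    (by linarith) (by linarith) hg
    (by
      simp only [quad]
      have e : (x₀ - δ - x₀) ^ 2 = δ ^ 2 := by ring
      rw [e, hKδ]
      have := le_abs_self (ψ (x₀ - δ) - ψ x₀)
      have := abs_nonneg (ψ (x₀ + δ) - ψ x₀)
      norm_num
      linarith)
    (by
      simp only [quad]
      have e : (x₀ + δ - x₀) ^ 2 = δ ^ 2 := by ring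
      rw [e, hKδ]
      have := le_abs_self (ψ (x₀ + δ) - ψ x₀)
      have := abs_nonneg (ψ (x₀ - δ) - ψ x₀)
      norm_num
      linarith)
  exact ⟨t, hIc.out h1 h3 ⟨ht.1.le, ht.2.le⟩, _, (contDiff_quad 0 0 K x₀).contDiffAt, hloc⟩

/-- A continuous function on a nonempty open set is touched from below somewhere. -/
theorem exists_touch_below {ψ : ℝ → ℝ} {I : Set ℝ} (hIo : IsOpen I) (hIc : I.OrdConnected)
    (hne : I.Nonempty) (hcont : ContinuousOn ψ I) :
    ∃ t ∈ I, ∃ f : ℝ → ℝ, ContDiffAt ℝ 2 f t ∧ IsLocalMin (fun s => ψ s - f s) t := by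
  obtain ⟨t, ht, f, hf, hloc⟩ := exists_touch_above (ψ := fun s => - ψ s) hIo hIc hne hcont.fun_neg
  refine ⟨t, ht, fun s => - f s, hf.neg, ?_⟩
  have := hloc.neg
  simpa [sub_eq_add_neg, add_comm] using this

/-! ### The constants -/

/-- The values of `G` at the touchings from above. -/
def upperVals (ψ : ℝ → ℝ) (I : Set ℝ) : Set ℝ :=
  {v | ∃ t ∈ I, ∃ f : ℝ → ℝ, ContDiffAt ℝ 2 f t ∧ IsLocalMax (fun s => ψ s - f s) t ∧ v = G f t}

/-- The values of `G` at the touchings from below. -/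
def lowerVals (ψ : ℝ → ℝ) (I : Set ℝ) : Set ℝ :=
  {v | ∃ t ∈ I, ∃ f : ℝ → ℝ, ContDiffAt ℝ 2 f t ∧ IsLocalMin (fun s => ψ s - f s) t ∧ v = G f t}

theorem upperVals_nonempty {ψ : ℝ → ℝ} {I : Set ℝ} (hIo : IsOpen I) (hIc : I.OrdConnected)
    (hne : I.Nonempty) (hcont : ContinuousOn ψ I) : (upperVals ψ I).Nonempty := by
  obtain ⟨t, ht, f, hf, hloc⟩ := exists_touch_above hIo hIc hne hcont
  exact ⟨_, t, ht, f, hf, hloc, rfl⟩

theorem lowerVals_nonempty {ψ : ℝ → ℝ} {I : Set ℝ} (hIo : IsOpen I) (hIc : I.OrdConnected)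
    (hne : I.Nonempty) (hcont : ContinuousOn ψ I) : (lowerVals ψ I).Nonempty := by
  obtain ⟨t, ht, f, hf, hloc⟩ := exists_touch_below hIo hIc hne hcont
  exact ⟨_, t, ht, f, hf, hloc, rfl⟩

/-- Any choice of values from above has nonnegative sum. -/
theorem sum_upper_nonneg {I : Fin n → Set ℝ} {φ : Fin n → ℝ → ℝ}
    (hu : IsInfHarmonic (Set.pi univ I) (fun x => ∑ k, φ k (x k))) {v : Fin n → ℝ}
    (hv : ∀ i, v i ∈ upperVals (φ i) (I i)) : 0 ≤ ∑ i, v i := by
  choose t ht f hf hloc hval using hv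
  have hz : t ∈ Set.pi univ I := fun i _ => ht i
  have h := ((hu.2 t hz _ (contDiffAt_sum hf)).1 (isLocalMax_sum hloc))
  rw [infLap_sum] at h
  simpa [hval] using h

/-- Any choice of values from below has nonpositive sum. -/
theorem sum_lower_nonpos {I : Fin n → Set ℝ} {φ : Fin n → ℝ → ℝ}
    (hu : IsInfHarmonic (Set.pi univ I) (fun x => ∑ k, φ k (x k))) {v : Fin n → ℝ}
    (hv : ∀ i, v i ∈ lowerVals (φ i) (I i)) : ∑ i, v i ≤ 0 := by
  choose t ht f hf hloc hval using hv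
  have hz : t ∈ Set.pi univ I := fun i _ => ht i
  have h := ((hu.2 t hz _ (contDiffAt_sum hf)).2 (isLocalMin_sum hloc))
  rw [infLap_sum] at h
  simpa [hval] using h

theorem continuousOn_coord {I : Fin n → Set ℝ} {φ : Fin n → ℝ → ℝ}
    (hIne : ∀ i, (I i).Nonempty)
    (hu : IsInfHarmonic (Set.pi univ I) (fun x => ∑ k, φ k (x k))) (i : Fin n) :
    ContinuousOn (φ i) (I i) := by
  choose x hx using hIne
  have h0 : Continuous (fun t : ℝ => Function.update x i t) :=
    continuous_const.update i continuous_id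
  have h1 : ContinuousOn (fun t => Function.update x i t) (I i) := h0.continuousOn
  have h2 : MapsTo (fun t => Function.update x i t) (I i) (Set.pi univ I) := by
    intro t ht k _
    by_cases hk : k = i
    · subst hk
      simpa using ht
    · simp only [Function.update_of_ne hk]
      exact hx k
  have h3 := (hu.1.comp h1 h2).sub (continuousOn_const (c := ∑ k ∈ Finset.univ.erase i, φ k (x k)))
  refine h3.congr fun t _ => ?_
  simp only [Function.comp_def, Pi.sub_apply]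
  rw [sum_update]
  ring

/-- The separation constants. -/
theorem exists_constants {I : Fin n → Set ℝ} {φ : Fin n → ℝ → ℝ} (hIo : ∀ i, IsOpen (I i))
    (hIc : ∀ i, (I i).OrdConnected) (hIne : ∀ i, (I i).Nonempty)
    (hu : IsInfHarmonic (Set.pi univ I) (fun x => ∑ k, φ k (x k))) :
    ∃ c : Fin n → ℝ, ∑ i, c i = 0 ∧ ∀ i, SubVal (φ i) (I i) (c i) ∧ SupVal (φ i) (I i) (c i) := by
  have hcont := continuousOn_coord hIne hu
  choose v₀ hv₀ using fun i => upperVals_nonempty (hIo i) (hIc i) (hIne i) (hcont i)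
  choose w₀ hw₀ using fun i => lowerVals_nonempty (hIo i) (hIc i) (hIne i) (hcont i)
  have hbdd : ∀ i, BddBelow (upperVals (φ i) (I i)) := by
    intro i
    refine ⟨- ∑ k ∈ Finset.univ.erase i, v₀ k, fun v hv => ?_⟩
    have h := sum_upper_nonneg hu (v := Function.update v₀ i v) (fun k => by
      by_cases hk : k = i
      · subst hk
        simpa using hv
      · simpa [Function.update_of_ne hk] using hv₀ k)
    rw [← Finset.add_sum_erase _ _ (Finset.mem_univ i), Function.update_self] at h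
    have e : ∑ k ∈ Finset.univ.erase i, Function.update v₀ i v k =
        ∑ k ∈ Finset.univ.erase i, v₀ k :=
      Finset.sum_congr rfl fun k hk => by rw [Function.update_of_ne (Finset.ne_of_mem_erase hk)]
    rw [e] at h
    linarith
  have hbdd' : ∀ i, BddAbove (lowerVals (φ i) (I i)) := by
    intro i
    refine ⟨- ∑ k ∈ Finset.univ.erase i, w₀ k, fun v hv => ?_⟩
    have h := sum_lower_nonpos hu (v := Function.update w₀ i v) (fun k => by
      by_cases hk : k = i
      · subst hk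
        simpa using hv
      · simpa [Function.update_of_ne hk] using hw₀ k)
    rw [← Finset.add_sum_erase _ _ (Finset.mem_univ i), Function.update_self] at h
    have e : ∑ k ∈ Finset.univ.erase i, Function.update w₀ i v k =
        ∑ k ∈ Finset.univ.erase i, w₀ k :=
      Finset.sum_congr rfl fun k hk => by rw [Function.update_of_ne (Finset.ne_of_mem_erase hk)]
    rw [e] at h
    linarith
  set a : Fin n → ℝ := fun i => sInf (upperVals (φ i) (I i)) with ha
  set b : Fin n → ℝ := fun i => sSup (lowerVals (φ i) (I i)) with hb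
  have hsub : ∀ i, SubVal (φ i) (I i) (a i) := fun i t ht f hf hloc =>
    csInf_le (hbdd i) ⟨t, ht, f, hf, hloc, rfl⟩
  have hsup : ∀ i, SupVal (φ i) (I i) (b i) := fun i t ht f hf hloc =>
    le_csSup (hbdd' i) ⟨t, ht, f, hf, hloc, rfl⟩
  have hab : ∀ i, a i ≤ b i := fun i =>
    sub_le_sup (hIo i) (hIc i) (hIne i) (hcont i) (hsub i) (hsup i)
  have hN : (0 : ℝ) < (n : ℝ) + 1 := by positivity
  have hsuma : 0 ≤ ∑ i, a i := by
    by_contra hcon
    push Not at hcon
    set ε := (- ∑ i, a i) / ((n : ℝ) + 1) with hε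
    have hε0 : 0 < ε := div_pos (by linarith) hN
    have hex : ∀ i, ∃ v ∈ upperVals (φ i) (I i), v < a i + ε := fun i =>
      exists_lt_of_csInf_lt ⟨v₀ i, hv₀ i⟩ (by simp only [ha]; linarith)
    choose v hv hlt using hex
    have h1 := sum_upper_nonneg hu hv
    have h2 : ∑ i, v i ≤ ∑ i, (a i + ε) := Finset.sum_le_sum fun i _ => (hlt i).le
    rw [Finset.sum_add_distrib, Finset.sum_const, Finset.card_univ, Fintype.card_fin,
      nsmul_eq_mul] at h2
    have h3 : ((n : ℝ) + 1) * ε = - ∑ i, a i := by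
      rw [hε]; field_simp
    nlinarith
  have hsumb : ∑ i, b i ≤ 0 := by
    by_contra hcon
    push Not at hcon
    set ε := (∑ i, b i) / ((n : ℝ) + 1) with hε
    have hε0 : 0 < ε := div_pos hcon hN
    have hex : ∀ i, ∃ v ∈ lowerVals (φ i) (I i), b i - ε < v := fun i =>
      exists_lt_of_lt_csSup ⟨w₀ i, hw₀ i⟩ (by simp only [hb]; linarith)
    choose v hv hlt using hex
    have h1 := sum_lower_nonpos hu hv
    have h2 : ∑ i, (b i - ε) ≤ ∑ i, v i := Finset.sum_le_sum fun i _ => (hlt i).le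
    rw [Finset.sum_sub_distrib, Finset.sum_const, Finset.card_univ, Fintype.card_fin,
      nsmul_eq_mul] at h2
    have h3 : ((n : ℝ) + 1) * ε = ∑ i, b i := by
      rw [hε]; field_simp
    nlinarith
  have hdiff : ∑ i, (b i - a i) = 0 := by
    apply le_antisymm
    · rw [Finset.sum_sub_distrib]
      linarith
    · exact Finset.sum_nonneg fun i _ => sub_nonneg.2 (hab i)
  have heq : ∀ i, b i = a i := fun i =>
    sub_eq_zero.1 ((Finset.sum_eq_zero_iff_of_nonneg fun k _ => sub_nonneg.2 (hab k)).1 hdiff i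
      (Finset.mem_univ i))
  refine ⟨a, ?_, fun i => ⟨hsub i, ?_⟩⟩
  · apply le_antisymm _ hsuma
    have : ∑ i, a i = ∑ i, b i := Finset.sum_congr rfl fun i _ => (heq i).symm
    rw [this]
    exact hsumb
  · rw [← heq i]
    exact hsup i

/-! ### Hölder continuity -/

theorem cube_diff_le (a b : ℝ) : |a - b| ^ 3 ≤ 4 * |a ^ 3 - b ^ 3| := by
  rcases le_total b a with h | h
  · have h1 : 0 ≤ a - b := sub_nonneg.2 h
    have h2 : 0 ≤ a ^ 3 - b ^ 3 := by
      have : b ^ 3 ≤ a ^ 3 := (Odd.strictMono_pow (R := ℝ) (n := 3) (by decide)).monotone h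
      linarith
    rw [abs_of_nonneg h1, abs_of_nonneg h2]
    nlinarith [mul_nonneg h1 (sq_nonneg (a + b))]
  · have h1 : 0 ≤ b - a := sub_nonneg.2 h
    have h2 : 0 ≤ b ^ 3 - a ^ 3 := by
      have : a ^ 3 ≤ b ^ 3 := (Odd.strictMono_pow (R := ℝ) (n := 3) (by decide)).monotone h
      linarith
    rw [abs_sub_comm a b, abs_sub_comm (a ^ 3) (b ^ 3), abs_of_nonneg h1, abs_of_nonneg h2]
    nlinarith [mul_nonneg h1 (sq_nonneg (a + b))]

/-- The Hölder bound from the affine cube of the derivative. -/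
theorem deriv_holder {ψ : ℝ → ℝ} {I : Set ℝ} {c D : ℝ}
    (h : ∀ t ∈ I, DifferentiableAt ℝ ψ t ∧ (deriv ψ t) ^ 3 = 3 * c * t + D) {s t : ℝ}
    (hs : s ∈ I) (ht : t ∈ I) : |deriv ψ s - deriv ψ t| ^ 3 ≤ 12 * |c| * |s - t| := by
  have h1 := cube_diff_le (deriv ψ s) (deriv ψ t)
  rw [(h s hs).2, (h t ht).2] at h1
  have e : 3 * c * s + D - (3 * c * t + D) = 3 * c * (s - t) := by ring
  rw [e, abs_mul, abs_mul] at h1
  rw [show |(3 : ℝ)| = 3 by norm_num] at h1
  linarith

theorem continuousOn_deriv_of_cube {ψ : ℝ → ℝ} {I : Set ℝ} {c D : ℝ}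
    (h : ∀ t ∈ I, DifferentiableAt ℝ ψ t ∧ (deriv ψ t) ^ 3 = 3 * c * t + D) :
    ContinuousOn (deriv ψ) I := by
  rw [Metric.continuousOn_iff]
  intro t ht ε hε
  have hK : 0 < 12 * |c| + 1 := by positivity
  refine ⟨ε ^ 3 / (12 * |c| + 1), by positivity, fun s hs hst => ?_⟩
  rw [Real.dist_eq] at hst ⊢
  have h1 := deriv_holder h hs ht
  have h2 : 12 * |c| * |s - t| < ε ^ 3 := by
    rw [lt_div_iff₀ hK] at hst
    have := abs_nonneg (s - t)
    nlinarith
  exact lt_of_pow_lt_pow_left₀ 3 hε.le (lt_of_le_of_lt h1 h2)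

/-- The oscillation of `ψ` controls the constant `c`. -/
theorem const_le_of_osc {ψ : ℝ → ℝ} {c D p q M : ℝ} (hpq : p < q)
    (h : ∀ t ∈ Icc p q, DifferentiableAt ℝ ψ t ∧ (deriv ψ t) ^ 3 = 3 * c * t + D)
    (hM : ∀ a ∈ Icc p q, ∀ b ∈ Icc p q, |ψ a - ψ b| ≤ M) :
    3 * |c| * (q - p) ^ 4 ≤ 256 * M ^ 3 := by
  set l := q - p with hl
  have hl0 : 0 < l := sub_pos.2 hpq
  -- a subinterval of length l/4 on which the cube of the derivative is large
  obtain ⟨a, b, hab, ha, hb, hba, hlarge⟩ : ∃ a b : ℝ, a < b ∧ a ∈ Icc p q ∧ b ∈ Icc p q ∧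
      b - a = l / 4 ∧ ∀ t ∈ Ioo a b, 3 * |c| * l / 4 ≤ |(deriv ψ t) ^ 3| := by
    have hp : p ∈ Icc p q := ⟨le_rfl, hpq.le⟩
    have hq : q ∈ Icc p q := ⟨hpq.le, le_rfl⟩
    have hdiff : (3 * c * q + D) - (3 * c * p + D) = 3 * c * l := by
      rw [hl]; ring
    have habs : 3 * |c| * l ≤ |3 * c * q + D| + |3 * c * p + D| := by
      have := abs_sub (3 * c * q + D) (3 * c * p + D)
      rw [hdiff, abs_mul, abs_mul, show |(3 : ℝ)| = 3 by norm_num, abs_of_pos hl0] at this
      exact this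
    by_cases hcase : 3 * |c| * l / 2 ≤ |3 * c * q + D|
    · refine ⟨q - l / 4, q, by linarith, ⟨by rw [hl]; linarith, by linarith⟩, hq, by ring, ?_⟩
      intro t ht
      rw [(h t ⟨by rw [hl] at ht; linarith [ht.1], ht.2.le⟩).2]
      have e : 3 * c * t + D = (3 * c * q + D) - 3 * c * (q - t) := by ring
      have h1 : |3 * c * q + D| - |3 * c * (q - t)| ≤ |3 * c * t + D| := by
        rw [e]
        exact abs_sub_abs_le_abs_sub _ _
      have h2 : |3 * c * (q - t)| ≤ 3 * |c| * (l / 4) := by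
        rw [abs_mul, abs_mul, show |(3 : ℝ)| = 3 by norm_num, abs_of_pos (sub_pos.2 ht.2)]
        have : q - t ≤ l / 4 := by linarith [ht.1]
        have h0 := abs_nonneg c
        nlinarith
      nlinarith
    · push Not at hcase
      have hp' : 3 * |c| * l / 2 ≤ |3 * c * p + D| := by linarith
      refine ⟨p, p + l / 4, by linarith, hp, ⟨by linarith, by rw [hl]; linarith⟩, by ring, ?_⟩
      intro t ht
      have htq : t ≤ q := by
        have := ht.2
        rw [hl] at this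
        linarith
      rw [(h t ⟨ht.1.le, htq⟩).2]
      have e : 3 * c * t + D = (3 * c * p + D) - 3 * c * (p - t) := by ring
      have h1 : |3 * c * p + D| - |3 * c * (p - t)| ≤ |3 * c * t + D| := by
        rw [e]
        exact abs_sub_abs_le_abs_sub _ _
      have h2 : |3 * c * (p - t)| ≤ 3 * |c| * (l / 4) := by
        rw [abs_mul, abs_mul, show |(3 : ℝ)| = 3 by norm_num, abs_sub_comm,
          abs_of_pos (sub_pos.2 ht.1)]
        have : t - p ≤ l / 4 := by linarith [ht.2]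
        have h0 := abs_nonneg c
        nlinarith
      nlinarith
  have hsubset : Icc a b ⊆ Icc p q := fun t ht => ⟨ha.1.trans ht.1, ht.2.trans hb.2⟩
  obtain ⟨ξ, hξ, hslope⟩ := exists_deriv_eq_slope ψ hab
    (fun t ht => (h t (hsubset ht)).1.continuousAt.continuousWithinAt)
    (fun t ht => (h t (hsubset ⟨ht.1.le, ht.2.le⟩)).1.differentiableWithinAt)
  have hba0 : 0 < b - a := sub_pos.2 hab
  have h1 : ψ b - ψ a = deriv ψ ξ * (b - a) := by
    rw [hslope]
    field_simp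
  have h2 := hM b hb a ha
  rw [h1, abs_mul, abs_of_pos hba0, hba] at h2
  have hM0 : 0 ≤ M := (abs_nonneg _).trans (hM p ⟨le_rfl, hpq.le⟩ p ⟨le_rfl, hpq.le⟩)
  have h3 := hlarge ξ hξ
  rw [abs_pow] at h3
  set v := |deriv ψ ξ| with hv
  have hv0 : 0 ≤ v := abs_nonneg _
  have h4 : (v * (l / 4)) ^ 3 ≤ M ^ 3 := pow_le_pow_left₀ (by positivity) h2 3
  have h5 : 3 * |c| * l / 4 * (l / 4) ^ 3 ≤ v ^ 3 * (l / 4) ^ 3 :=
    mul_le_mul_of_nonneg_right h3 (by positivity)
  have h6 : (v * (l / 4)) ^ 3 = v ^ 3 * (l / 4) ^ 3 := by ring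
  have h7 : 3 * |c| * l / 4 * (l / 4) ^ 3 = 3 * |c| * l ^ 4 / 256 := by ring
  rw [h7, ← h6] at h5
  linarith

/-- The quantitative `C^{1,1/3}` estimate. -/
theorem deriv_holder_osc {ψ : ℝ → ℝ} {c D p q M : ℝ} (hpq : p < q)
    (h : ∀ t ∈ Icc p q, DifferentiableAt ℝ ψ t ∧ (deriv ψ t) ^ 3 = 3 * c * t + D)
    (hM : ∀ a ∈ Icc p q, ∀ b ∈ Icc p q, |ψ a - ψ b| ≤ M) {s t : ℝ} (hs : s ∈ Icc p q)
    (ht : t ∈ Icc p q) :
    |deriv ψ s - deriv ψ t| ^ 3 * (q - p) ^ 4 ≤ 1024 * M ^ 3 * |s - t| := by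
  have h1 := deriv_holder h hs ht
  have h2 := const_le_of_osc hpq h hM
  have h3 : 0 < (q - p) ^ 4 := by
    have := sub_pos.2 hpq
    positivity
  have h4 := abs_nonneg (s - t)
  calc |deriv ψ s - deriv ψ t| ^ 3 * (q - p) ^ 4 ≤ (12 * |c| * |s - t|) * (q - p) ^ 4 :=
        mul_le_mul_of_nonneg_right h1 h3.le
    _ = 4 * (3 * |c| * (q - p) ^ 4) * |s - t| := by ring
    _ ≤ 4 * (256 * M ^ 3) * |s - t| := by
        apply mul_le_mul_of_nonneg_right _ h4
        linarith
    _ = 1024 * M ^ 3 * |s - t| := by ring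

/-- **Main theorem.** Classification of separable infinity-harmonic functions on a product of open
intervals, with `C¹` regularity and the universal `C^{1,1/3}` estimate. -/
theorem separable_infHarmonic {I : Fin n → Set ℝ} {φ : Fin n → ℝ → ℝ} (hIo : ∀ i, IsOpen (I i))
    (hIc : ∀ i, (I i).OrdConnected) (hIne : ∀ i, (I i).Nonempty)
    (hu : IsInfHarmonic (Set.pi univ I) (fun x => ∑ k, φ k (x k))) :
    ∃ c D : Fin n → ℝ, ∑ i, c i = 0 ∧
      (∀ i, ∀ t ∈ I i, DifferentiableAt ℝ (φ i) t ∧ (deriv (φ i) t) ^ 3 = 3 * c i * t + D i) ∧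
      ContDiffOn ℝ 1 (fun x : Fin n → ℝ => ∑ k, φ k (x k)) (Set.pi univ I) ∧
      (∀ i, ∀ p q M : ℝ, p < q → Icc p q ⊆ I i →
        (∀ a ∈ Icc p q, ∀ b ∈ Icc p q, |φ i a - φ i b| ≤ M) →
        ∀ s ∈ Icc p q, ∀ t ∈ Icc p q,
          |deriv (φ i) s - deriv (φ i) t| ^ 3 * (q - p) ^ 4 ≤ 1024 * M ^ 3 * |s - t|) := by
  have hcont := continuousOn_coord hIne hu
  obtain ⟨c, hsum, hc⟩ := exists_constants hIo hIc hIne hu
  have hD : ∀ i, ∃ D, ∀ t ∈ I i, DifferentiableAt ℝ (φ i) t ∧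
      (deriv (φ i) t) ^ 3 = 3 * c i * t + D := fun i =>
    rigid (hIo i) (hIc i) (hIne i) (hcont i) (hc i).1 (hc i).2
  choose D hD using hD
  refine ⟨c, D, hsum, hD, ?_, ?_⟩
  · have hC1 : ∀ i, ContDiffOn ℝ 1 (φ i) (I i) := by
      intro i
      rw [show (1 : WithTop ℕ∞) = 0 + 1 by simp, contDiffOn_succ_iff_deriv_of_isOpen (hIo i)]
      refine ⟨fun t ht => (hD i t ht).1.differentiableWithinAt, by simp, ?_⟩
      exact contDiffOn_zero.2 (continuousOn_deriv_of_cube (hD i))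
    refine ContDiffOn.sum fun k _ => ?_
    refine ContDiffOn.comp (g := φ k) (f := fun x : Fin n → ℝ => x k) (t := I k) (hC1 k)
      (contDiff_apply ℝ ℝ k).contDiffOn ?_
    intro x hx
    exact hx k (mem_univ k)
  · intro i p q M hpq hsub hM s hs t ht
    exact deriv_holder_osc hpq (fun t ht => hD i t (hsub ht)) hM hs ht

end Vale.Agent.Lib.P080
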